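import Vale.Agent.P032.S5.H57.RingZ
import Vale.Agent.P032.Carr.LamX
import Vale.Agent.P032.S5.H175.FrozenM

/-!
# P032, block CARR: the input `hring` of `lamX_of` (no two harmless points at distance one)
-/

open Set Filter Topology Metric

noncomputable section

namespace Vale.Agent.P032.S5.H57

open Vale.Agent.P032.Six Vale.Agent.P032.Carr
open Vale.Agent.P032.H180 (Frz om dist_rot dist_rot')

variable {U : Fin 6 → Set ℂ} {T : ℂ → Set (Fin 6)} {Z : Set ℂ} {f : ℂ → Set (Fin 6)} {δ₀ : ℝ}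
  {c : ℂ} {R : ℝ} {x : ℂ} {S : Set (Fin 6)}

/-- 223's harmless points are 175's harmless points -/
theorem harm_of (h : Irr U T) (hZ : Zs T Z c R) (hl : Hml T f (ball c (R + 1))) {z : ℂ}
    (hz : z ∈ Z) {p q : Fin 6} (hpq : p ≠ q) (hf : f z = {p, q}) : H175.Harm T z p q := by
  have hzW := hZ.sub hz
  have hz4 := hZ.four z hz
  have hfs := hl.fsub z hzW hz4
  have hp : p ∈ f z := by rw [hf]; exact Or.inl rfl
  have hq : q ∈ f z := by rw [hf]; exact Or.inr rfl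
  refine ⟨hl.four z hzW hz4, hpq, hfs hp, hfs hq, fun w hw hsub => ?_, ?_⟩
  · have h1 := hl.h1 z hzW hz4 w hw hsub
    exact ⟨h1 hp, h1 hq⟩
  · obtain ⟨y, hy, hyf⟩ := hl.h2 z hzW hz4
    filter_upwards [h.no_layer hy] with w hw h1 h2
    refine hw ?_
    rw [hyf, hf]
    rintro i (rfl | rfl)
    · exact h1
    · exact h2

theorem le_three (hZ : Zs T Z c R) (hx : dist x c ≤ R - 1) {y : ℂ} (hy : dist y x = 1)
    (hyZ : y ∉ Z) : (T y).ncard ≤ 3 := by
  by_contra hcon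
  refine hyZ (hZ.mem y (mem_closedBall.2 ?_) (by omega))
  have := dist_triangle y x c
  linarith

/-- a base of 286's interface is a base in the sense of `RB` -/
theorem rb_of (h : Irr U T) (hZ : Zs T Z c R) (hl : Hml T f (ball c (R + 1)))
    (hcl : ∀ z ∈ Z, ∀ z' ∈ Z, dist z z' ≠ 1) (H : Hm T Z f δ₀) (hx : dist x c ≤ R - 1)
    (hcomp : ∀ u, dist u x ≤ 1 → ¬ S5.Face T u Sᶜ) (hb : Base T (Ex T Z f) x S) :
    RB U T Z f δ₀ x S where
  irr := h
  hm := H
  three := hb.1.1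
  sub := hb.1.2.1
  full := hb.1.2.2
  le := fun y hy hyZ => le_three hZ hx hy hyZ
  harm := fun z hz _ y hy hsub => hl.h1 z (hZ.sub hz) (hZ.four z hz) y hy hsub
  sep := fun z hz _ y hyZ hd => hcl y hyZ z hz hd
  unp := fun z hz hzx => apex_off hZ hl (fun hxZ => hcl z hz x hxZ hzx) hb.1.2.1
    (fun i hi j hj hij => hb.2 i hi j hj hij) hz hzx
  comp := fun y hy hsub => by
    by_contra hcon
    push Not at hcon
    refine hcomp y hy.le ⟨?_, hsub, hcon⟩
    rw [Set.ncard_compl, hb.1.1]; simp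

theorem not_frz_base (h : Irr U T) (hZ : Zs T Z c R) (hl : Hml T f (ball c (R + 1)))
    (hcl : ∀ z ∈ Z, ∀ z' ∈ Z, dist z z' ≠ 1) (H : Hm T Z f δ₀) (hx : dist x c ≤ R - 1)
    (hcomp : ∀ u, dist u x ≤ 1 → ¬ S5.Face T u Sᶜ) (hb : Base T (Ex T Z f) x S)
    {d e g : Fin 6} (hcov : ∀ i, i ∉ S ↔ i = d ∨ i = e ∨ i = g) (hde : d ≠ e) (heg : e ≠ g)
    (hdg : d ≠ g) (hno : ∀ z ∈ Z, dist z x = 1 → ¬ Sᶜ ⊆ T z) : ¬ Frz x T ![d, e, g] := by
  have B := rb_of h hZ hl hcl H hx hcomp hb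
  have hinj : Function.Injective (![d, e, g] : Fin 3 → Fin 6) := by
    intro i j hij
    fin_cases i <;> fin_cases j <;> simp_all
  have hcol : ∀ i, i ∉ S ↔ ∃ l, i = (![d, e, g] : Fin 3 → Fin 6) l := by
    intro i
    rw [hcov]
    constructor
    · rintro (rfl | rfl | rfl)
      · exact ⟨0, rfl⟩
      · exact ⟨1, rfl⟩
      · exact ⟨2, rfl⟩
    · rintro ⟨l, rfl⟩
      fin_cases l
      · exact Or.inl rfl
      · exact Or.inr (Or.inl rfl)
      · exact Or.inr (Or.inr rfl)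
  have hQ2 : ∀ y, dist y x = 1 → ∃ i, i ∉ S ∧ i ∉ T y := by
    intro y hy
    have h1 : ¬ Sᶜ ⊆ T y := by
      by_cases hyZ : y ∈ Z
      · exact hno y hyZ hy
      · exact B.nc hy hyZ
    obtain ⟨i, hi, hi'⟩ := Set.not_subset.1 h1
    exact ⟨i, hi, hi'⟩
  by_cases hxZ : x ∈ Z
  · have hxW := hZ.sub hxZ
    have hx4 := hZ.four x hxZ
    have hle : ∀ y, dist y x = 1 → (T y).ncard ≤ 3 := fun y hy =>
      le_three hZ hx hy fun hyZ => hcl y hyZ x hxZ hy
    obtain ⟨p, q, hpq, hf⟩ := Set.ncard_eq_two.1 (hl.two x hxW hx4)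
    have hH := harm_of h hZ hl hxZ hpq hf
    -- exactly one of `p`, `q` is in `S`
    have hnf : ¬ f x ⊆ S := by
      obtain ⟨y, hy, hyf⟩ := hl.h2 x hxW hx4
      rw [← hyf]
      exact hb.1.2.2 y hy
    have hone : (T x \ S).ncard = 1 := by
      rw [Set.ncard_sdiff hb.1.2.1 (Set.toFinite _), hl.four x hxW hx4, hb.1.1]
    have hnot : ¬ (p ∉ S ∧ q ∉ S) := by
      rintro ⟨h1, h2⟩
      exact hpq ((Set.ncard_le_one (Set.toFinite _)).1 hone.le p ⟨hH.hp, h1⟩ q ⟨hH.hq, h2⟩)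
    by_cases hpS : p ∈ S
    · have hqS : q ∉ S := by
        intro hqS
        apply hnf
        rw [hf]
        rintro i (rfl | rfl) <;> assumption
      exact H175.not_Frz_virt h hH hb.1.1 hb.1.2.1 hpS hqS hle hQ2 hcol hinj
    · have hqS : q ∈ S := by
        by_contra hqS
        exact hnot ⟨hpS, hqS⟩
      exact H175.not_Frz_virt h hH.symm hb.1.1 hb.1.2.1 hqS hpS hle hQ2 hcol hinj
  · have hx3 : (T x).ncard ≤ 3 := by
      by_contra hcon
      exact hxZ (hZ.mem x (mem_closedBall.2 (by linarith)) (by omega))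
    have hSx : S = T x := Set.eq_of_subset_of_ncard_le hb.1.2.1 (by rw [hb.1.1]; exact hx3)
      (Set.toFinite _)
    subst hSx
    refine H175.not_Frz_real h hb.1.1 hQ2 (fun y hy => ?_) (fun y y' hy hy' hyy => ?_) hcol hinj
    · by_cases hyZ : y ∈ Z
      · right
        obtain ⟨p, q, hpq, hf⟩ := Set.ncard_eq_two.1 (hl.two y (hZ.sub hyZ) (hZ.four y hyZ))
        exact ⟨p, q, harm_of h hZ hl hyZ hpq hf⟩
      · exact Or.inl (le_three hZ hx hy hyZ)
    · by_cases hyZ : y ∈ Z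
      · exact Or.inr (le_three hZ hx hy' fun hy'Z => hcl y hyZ y' hy'Z hyy)
      · exact Or.inl (le_three hZ hx hy hyZ)

/-- **The input `hring` of `lamX_of`**: no two points of `Z` at distance one. -/
theorem hring_of (h : Irr U T) (hZ : Zs T Z c R) (hl : Hml T f (ball c (R + 1)))
    (hcl : ∀ z ∈ Z, ∀ z' ∈ Z, dist z z' ≠ 1) (H : Hm T Z f δ₀) {B : Set ℂ}
    (hB : ∀ x ∈ B, dist x c ≤ R - 1)
    (hcomp : ∀ x ∈ B, ∀ s : Set (Fin 6), S5.Face T x s → ∀ u, dist u x ≤ 1 → ¬ S5.Face T u sᶜ) :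
    ∀ x ∈ B, ∀ a b c d e g : Fin 6, [a, b, c, d, e, g].Nodup →
      Base T (Ex T Z f) x {a, b, c} →
      ∀ᶠ δ in 𝓝[>] (0 : ℝ), ∀ᶠ j : ℕ in atTop, ∀ h : ℕ → Fin 6, h (6 * 2 ^ j) = h 0 →
      (∀ k ≤ 6 * 2 ^ j, h k ∈ apx T Z δ (hp T f {a, b, c}) (pt x j (2 ^ j) k) ∧
        h k ∉ ({a, b, c} : Set (Fin 6))) →
        ∑ k ∈ Finset.range (6 * 2 ^ j), eps (h k) (h (k + 1)) {d, e} = 1 := by
  intro x hx a b r d e g hnd hb
  have hxc := hB x hx
  have hcov : ∀ i : Fin 6, i ∉ ({a, b, r} : Set (Fin 6)) ↔ i = d ∨ i = e ∨ i = g := by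
    have h1 : ({a, b, r, d, e, g} : Finset (Fin 6)) = Finset.univ := by
      apply Finset.eq_univ_of_card
      have := List.toFinset_card_of_nodup hnd
      simpa using this
    intro i
    have hi : i ∈ ({a, b, r, d, e, g} : Finset (Fin 6)) := by rw [h1]; simp
    simp only [List.nodup_cons, List.mem_cons, List.not_mem_nil, or_false, not_or] at hnd
    simp only [Finset.mem_insert, Finset.mem_singleton] at hi
    simp only [Set.mem_insert_iff, Set.mem_singleton_iff, not_or]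
    rcases hi with rfl | rfl | rfl | rfl | rfl | rfl <;> tauto
  simp only [List.nodup_cons, List.mem_cons, List.not_mem_nil, or_false, not_or] at hnd
  obtain ⟨-, -, -, ⟨hde, hdg⟩, heg, -⟩ := hnd
  have hc' := hcomp x hx _ hb.1
  exact (rb_of h hZ hl hcl H hxc hc' hb).odd hcov hde heg hdg
    (not_frz_base h hZ hl hcl H hxc hc' hb hcov hde heg hdg)

end Vale.Agent.P032.S5.H57
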