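import Vale.Agent.P032.S5.H57.RingZ
import Vale.Agent.P032.S5.H180.HexZ

/-!
# P032, block CARR: the apex rings are odd, from the hexagon count with full times
-/

open Set Filter Topology Metric

noncomputable section

namespace Vale.Agent.P032.S5.H57

open Vale.Agent.P032.Six Vale.Agent.P032.Carr
open Vale.Agent.P032.H180 (f2 pt_six continuous_pt HexZ Qt)

variable {U : Fin 6 → Set ℂ} {T : ℂ → Set (Fin 6)} {Z : Set ℂ} {f : ℂ → Set (Fin 6)} {δ δ₀ : ℝ}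
  {x : ℂ} {S : Set (Fin 6)}

/-- the data at a base which do not mention pairs of points of the circle -/
structure RC (T : ℂ → Set (Fin 6)) (Z : Set ℂ) (f : ℂ → Set (Fin 6)) (δ₀ : ℝ)
    (x : ℂ) (S : Set (Fin 6)) : Prop where
  hm : Hm T Z f δ₀
  three : S.ncard = 3
  full : ∀ y, dist y x = 1 → ¬ T y ⊆ S
  nc : ∀ y, dist y x = 1 → y ∉ Z → ¬ Sᶜ ⊆ T y
  fz : ∀ z ∈ Z, dist z x = 1 → Sᶜ ⊆ T z → f z ⊆ Sᶜ
  unp : ∀ z ∈ Z, dist z x = 1 → ∃ i, i ∈ T z ∧ i ∉ f z ∧ i ∉ S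

theorem hp_congr {z w : ℂ} (h1 : T z = T w) (h2 : f z = f w) (A : Set (Fin 6)) :
    hp T f A z = hp T f A w := by
  unfold hp; rw [h1, h2]

theorem near2 (H : Hm T Z f δ₀) {z w : ℂ} (hz : z ∈ Z) (hw : w ∈ Z) (hd : dist w z ≤ δ₀) :
    T w = T z ∧ f w = f z ∧ hp T f S w = hp T f S z := by
  obtain ⟨e1, e2⟩ := H.const z hz w hw hd
  exact ⟨e1, e2, hp_congr e1 e2 S⟩

variable {d e g : Fin 6}

theorem exists_lab (hcov : ∀ i, i ∉ S ↔ i = d ∨ i = e ∨ i = g) {i : Fin 6} (hi : i ∉ S) :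
    ∃ l, (![d, e, g] : Fin 3 → Fin 6) l = i :=
  Vale.Agent.P032.S5.H180.exists_col ((hcov i).1 hi)

theorem lab_off (hcov : ∀ i, i ∉ S ↔ i = d ∨ i = e ∨ i = g) (l : Fin 3) :
    (![d, e, g] : Fin 3 → Fin 6) l ∉ S := by
  rw [hcov]
  fin_cases l <;> simp

/-- a set of two labels, without the first and without the second -/
theorem single_of {P : Set (Fin 3)} (hP : P.Nonempty) {a r : Fin 3} (har : a ≠ r) (ha : a ∉ P)
    (hr : r ∉ P) : ∃ m, P = {m} := by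
  obtain ⟨m, hm⟩ := hP
  refine ⟨m, Set.eq_singleton_iff_unique_mem.2 ⟨hm, fun l hl => ?_⟩⟩
  have h1 : m ≠ a := by rintro rfl; exact ha hm
  have h2 : m ≠ r := by rintro rfl; exact hr hm
  have h3 : l ≠ a := by rintro rfl; exact ha hl
  have h4 : l ≠ r := by rintro rfl; exact hr hl
  clear hm hl ha hr
  revert har h1 h2 h3 h4
  revert a r m l
  decide

/-- **The apex rings are odd.** -/
theorem RC.ringZ (B : RC T Z f δ₀ x S) (hcov : ∀ i, i ∉ S ↔ i = d ∨ i = e ∨ i = g) (hde : d ≠ e)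
    (heg : e ≠ g) (hdg : d ≠ g) {r : ℝ → Fin 3}
    (hr : ∀ t, Sᶜ ⊆ T (H180.pt x t) →
      (![d, e, g] : Fin 3 → Fin 6) (r t) = hp T f S (H180.pt x t))
    (hX : HexZ (fun t => {l | (![d, e, g] : Fin 3 → Fin 6) l ∈ T (H180.pt x t)}) r)
    (hnf : ¬ ((∀ t ∈ Icc (0 : ℝ) 6, ∀ l,
        l ∈ Qt (fun t => {l | (![d, e, g] : Fin 3 → Fin 6) l ∈ T (H180.pt x t)}) r t ↔
        l + 1 ∈ Qt (fun t => {l | (![d, e, g] : Fin 3 → Fin 6) l ∈ T (H180.pt x t)}) r (t + 1)) ∨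
      ∀ t ∈ Icc (0 : ℝ) 6, ∀ l,
        l ∈ Qt (fun t => {l | (![d, e, g] : Fin 3 → Fin 6) l ∈ T (H180.pt x t)}) r t ↔
        l + 2 ∈ Qt (fun t => {l | (![d, e, g] : Fin 3 → Fin 6) l ∈ T (H180.pt x t)}) r (t + 1))) :
    ∀ᶠ δ in 𝓝[>] (0 : ℝ), ∀ᶠ j : ℕ in atTop, ∀ h : ℕ → Fin 6, h (6 * 2 ^ j) = h 0 →
      (∀ k ≤ 6 * 2 ^ j, h k ∈ apx T Z δ (hp T f S) (pt x j (2 ^ j) k) ∧ h k ∉ S) →
        ∑ k ∈ Finset.range (6 * 2 ^ j), eps (h k) (h (k + 1)) {d, e} = 1 := by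
  classical
  have hδ₀ := B.hm.pos
  obtain ⟨δ₁, hδ₁, hδ₁', h1⟩ := B.hm.scale (x := x)
    (P := fun P F => (Sᶜ ⊆ P → F ⊆ Sᶜ) ∧ ∃ i, i ∈ P ∧ i ∉ F ∧ i ∉ S)
    fun z hz hzx => ⟨B.fz z hz hzx, B.unp z hz hzx⟩
  filter_upwards [Ioo_mem_nhdsGT hδ₁, Ioo_mem_nhdsGT (show (0 : ℝ) < δ₀ / 4 by linarith)]
    with δ hδ hδq
  have hδ0 := hδ.1
  have hδ' : δ ≤ δ₀ / 4 := hδq.2.le
  have g1 : ∀ z ∈ Z, (∃ y, dist y x = 1 ∧ dist y z ≤ δ) → (Sᶜ ⊆ T z → f z ⊆ Sᶜ) ∧
      ∃ i, i ∈ T z ∧ i ∉ f z ∧ i ∉ S := fun z hz ⟨y, hy, hyz⟩ =>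
    h1 z hz ⟨y, hy, hyz.trans hδ.2.le⟩
  have hap : ∀ z ∈ Z, (∃ y, dist y x = 1 ∧ dist y z ≤ δ) →
      hp T f S z ∈ T z ∧ hp T f S z ∉ f z ∧ hp T f S z ∉ S := by
    intro z hz hy
    obtain ⟨h1, h2⟩ := B.hm.apex hz S
    exact ⟨h1, h2, pick_avoid (g1 z hz hy).2⟩
  have hp1 : ∀ t, dist (H180.pt x t) x = 1 := fun t => H180.dist_pt x t
  have SC : Sc T Z δ (hp T f S) := B.hm.sc hδ0 (by linarith) S
  have hinj : Function.Injective (![d, e, g] : Fin 3 → Fin 6) := by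
    intro i j hij
    fin_cases i <;> fin_cases j <;> simp_all
  have hcont : ∀ t, Tendsto (H180.pt x) (𝓝 t) (𝓝 (H180.pt x t)) := fun t =>
    (continuous_pt x).continuousAt
  obtain ⟨δ', hδ'', hring⟩ := hX.ring_odd hnf
    (K := fun t => {l | (![d, e, g] : Fin 3 → Fin 6) l ∈ apx T Z δ (hp T f S) (H180.pt x t)})
    (fun t => by
      by_cases hz : ∃ z ∈ Z, dist (H180.pt x t) z ≤ δ
      · obtain ⟨z, hz, hd⟩ := hz
        obtain ⟨l, hl⟩ := exists_lab hcov (hap z hz ⟨_, hp1 t, hd⟩).2.2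
        exact ⟨l, by
          show (![d, e, g] : Fin 3 → Fin 6) l ∈ apx T Z δ (hp T f S) (H180.pt x t)
          rw [hl]; exact Or.inr ⟨z, hz, hd, rfl⟩⟩
      · push Not at hz
        obtain ⟨l, hl⟩ := hX.ne t
        exact ⟨l, by
          show (![d, e, g] : Fin 3 → Fin 6) l ∈ apx T Z δ (hp T f S) (H180.pt x t)
          rw [apx_far hz]; exact hl⟩)
    (fun t => by
      filter_upwards [(hcont t).eventually
        (usc_of_closed (SC.closed B.hm.compact B.hm.usc) (H180.pt x t))] with s hs l hl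
      exact hs hl)
    (fun t l hl hlQ => by
      have hl : (![d, e, g] : Fin 3 → Fin 6) l ∈ apx T Z δ (hp T f S) (H180.pt x t) := hl
      rcases hl with ⟨h2, -⟩ | ⟨z, hz, hd, h2⟩
      · exact absurd h2 hlQ
      · have hmiss : ∃ a, a ∉ S ∧ a ≠ hp T f S z ∧ a ∉ T (H180.pt x t) := by
          by_cases hzS : Sᶜ ⊆ T z
          · by_cases hpZ : H180.pt x t ∈ Z
            · exfalso
              obtain ⟨e1, -, -⟩ := near2 (S := S) B.hm hz hpZ (by linarith)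
              apply hlQ
              show (![d, e, g] : Fin 3 → Fin 6) l ∈ T (H180.pt x t)
              rw [e1]
              exact hzS (lab_off hcov l)
            · obtain ⟨a, ha, haT⟩ := Set.not_subset.1 (B.hm.forb z hz _ (by linarith) hpZ)
              exact ⟨a, (g1 z hz ⟨_, hp1 t, hd⟩).1 hzS ha,
                fun h => (hap z hz ⟨_, hp1 t, hd⟩).2.1 (h ▸ ha), haT⟩
          · obtain ⟨a, ha, haT⟩ := Set.not_subset.1 hzS
            exact ⟨a, ha, fun h => haT (h ▸ (hap z hz ⟨_, hp1 t, hd⟩).1),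
              fun h => haT (B.hm.sub z hz _ (by linarith) h)⟩
        obtain ⟨a, haS, hne, haT⟩ := hmiss
        obtain ⟨m, hm⟩ := exists_lab hcov haS
        refine single_of (hX.ne t) (a := m) (r := l) (fun h => hne ?_) (fun h => haT ?_) hlQ
        · rw [← hm, h, ← h2]
        · have h : (![d, e, g] : Fin 3 → Fin 6) m ∈ T (H180.pt x t) := h
          rwa [hm] at h)
    (fun t i hi j hj hiQ hjQ => by
      have hi : (![d, e, g] : Fin 3 → Fin 6) i ∈ apx T Z δ (hp T f S) (H180.pt x t) := hi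
      have hj : (![d, e, g] : Fin 3 → Fin 6) j ∈ apx T Z δ (hp T f S) (H180.pt x t) := hj
      rcases hi with ⟨h2, -⟩ | ⟨z, hz, hd, h2⟩
      · exact absurd h2 hiQ
      · rcases hj with ⟨h3, -⟩ | ⟨z', hz', hd', h3⟩
        · exact absurd h3 hjQ
        · have h4 : dist z' z ≤ δ₀ := by
            have := dist_triangle_left z' z (H180.pt x t)
            linarith
          exact hinj (by rw [← h2, ← h3, (near2 (S := S) B.hm hz hz' h4).2.2]))
    (fun t ht l hl => by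
      have hl : (![d, e, g] : Fin 3 → Fin 6) l ∈ apx T Z δ (hp T f S) (H180.pt x t) := hl
      have hu : Sᶜ ⊆ T (H180.pt x t) := by
        intro i hi
        obtain ⟨m, hm⟩ := exists_lab hcov hi
        have h3 : m ∈ {l | (![d, e, g] : Fin 3 → Fin 6) l ∈ T (H180.pt x t)} := by
          have ht : {l | (![d, e, g] : Fin 3 → Fin 6) l ∈ T (H180.pt x t)} = univ := ht
          rw [ht]; trivial
        rw [← hm]
        exact h3
      have hpZ : H180.pt x t ∈ Z := by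
        by_contra hcon
        exact B.nc _ (hp1 t) hcon hu
      have h3 := SC.sub_Z hpZ hl
      have h4 : (![d, e, g] : Fin 3 → Fin 6) l = hp T f S (H180.pt x t) := h3
      exact hinj (by rw [h4, hr t hu]))
  have hmesh : ∀ᶠ j : ℕ in atTop, (1 : ℝ) / 2 ^ j < δ' := by
    have h2 : Tendsto (fun j : ℕ => (1 : ℝ) / 2 ^ j) atTop (𝓝 0) := by
      have := tendsto_pow_atTop_nhds_zero_of_lt_one (r := (1 / 2 : ℝ)) (by norm_num) (by norm_num)
      simpa [one_div, inv_pow] using this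
    exact (tendsto_order.1 h2).2 _ hδ''
  filter_upwards [hmesh] with j hj h hper hlab
  have hpow : (0 : ℝ) < 2 ^ j := by positivity
  have hex : ∀ k, ∃ l : Fin 3, k ≤ 6 * 2 ^ j → (![d, e, g] : Fin 3 → Fin 6) l = h k := by
    intro k
    by_cases hk : k ≤ 6 * 2 ^ j
    · obtain ⟨l, hl⟩ := exists_lab hcov (hlab k hk).2
      exact ⟨l, fun _ => hl⟩
    · exact ⟨0, fun hk' => absurd hk' hk⟩
  choose l hl using hex
  have hptk : ∀ k : ℕ, H180.pt x ((k : ℝ) / 2 ^ j) = pt x j (2 ^ j) k := by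
    intro k
    rw [pt_cis]
    unfold H180.pt cis
    congr 2
    push_cast
    field_simp
    ring
  have hsum := hring (6 * 2 ^ j) (fun k => (k : ℝ) / 2 ^ j) l (fun k hk => by
      have hk' : (k : ℝ) ≤ 6 * 2 ^ j := by exact_mod_cast hk
      constructor
      · positivity
      · rw [div_le_iff₀ hpow]; exact hk') (by simp) (by
        push_cast
        field_simp) (fun k _ => by
      have e1 : (k : ℝ) / 2 ^ j - ((k + 1 : ℕ) : ℝ) / 2 ^ j = -(1 / 2 ^ j) := by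
        push_cast; field_simp; ring
      rw [e1, abs_neg, abs_of_pos (by positivity)]
      exact hj) (fun k hk => by
      show (![d, e, g] : Fin 3 → Fin 6) (l k) ∈ apx T Z δ (hp T f S) (H180.pt x ((k : ℝ) / 2 ^ j))
      rw [hl k hk, hptk]
      exact (hlab k hk).1) (hinj (by rw [hl _ le_rfl, hl 0 (Nat.zero_le _), hper]))
  rw [← hsum]
  refine Finset.sum_congr rfl fun k hk => ?_
  have hk' := Finset.mem_range.1 hk
  rw [← hl k hk'.le, ← hl (k + 1) hk', Vale.Agent.P032.S5.H180.f2_eps hde heg hdg]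

end Vale.Agent.P032.S5.H57
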