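import Vale.Agent.P032.S5.H57.Rules

/-!
# P032, block CARR: the odd ring at a base whose circle meets harmless four-coloured points
-/

open Set Filter Topology Metric

noncomputable section

namespace Vale.Agent.P032.S5.H57

open Vale.Agent.P032.Six Vale.Agent.P032.Carr
open Vale.Agent.P032.H180 (Frz om dist_rot dist_rot')

variable {U : Fin 6 → Set ℂ} {T : ℂ → Set (Fin 6)} {Z : Set ℂ} {f : ℂ → Set (Fin 6)} {δ δ₀ : ℝ}
  {x : ℂ} {S : Set (Fin 6)}

/-- a base `(x, S)`: a full face `S` at `x`, harmless points `Z` on the circle about `x` are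
unpinched and have no neighbours in `Z`; no complementary face on the circle -/
structure RB (U : Fin 6 → Set ℂ) (T : ℂ → Set (Fin 6)) (Z : Set ℂ) (f : ℂ → Set (Fin 6)) (δ₀ : ℝ)
    (x : ℂ) (S : Set (Fin 6)) : Prop where
  irr : Irr U T
  hm : Hm T Z f δ₀
  three : S.ncard = 3
  sub : S ⊆ T x
  full : ∀ y, dist y x = 1 → ¬ T y ⊆ S
  le : ∀ y, dist y x = 1 → y ∉ Z → (T y).ncard ≤ 3
  harm : ∀ z ∈ Z, dist z x = 1 → ∀ y, dist y z = 1 → T y ⊆ T z → f z ⊆ T y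
  sep : ∀ z ∈ Z, dist z x = 1 → ∀ y ∈ Z, dist y z ≠ 1
  unp : ∀ z ∈ Z, dist z x = 1 → ∃ i, i ∈ T z ∧ i ∉ f z ∧ i ∉ S
  comp : ∀ y, dist y x = 1 → Sᶜ ⊆ T y → ∃ w, dist w y = 1 ∧ T w ⊆ Sᶜ

theorem RB.c3 (B : RB U T Z f δ₀ x S) : (Sᶜ).ncard = 3 := by
  rw [Set.ncard_compl, B.three]; simp

theorem RB.nc (B : RB U T Z f δ₀ x S) {y : ℂ} (hy : dist y x = 1) (hyZ : y ∉ Z) :
    ¬ Sᶜ ⊆ T y := by
  intro hs
  obtain ⟨w, hw, hwS⟩ := B.comp y hy hs
  exact B.irr.not_sub hw (B.le y hy hyZ) (hwS.trans hs)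

theorem RB.fz (B : RB U T Z f δ₀ x S) {z : ℂ} (hz : z ∈ Z) (hzx : dist z x = 1)
    (hs : Sᶜ ⊆ T z) : f z ⊆ Sᶜ := by
  obtain ⟨w, hw, hwS⟩ := B.comp z hzx hs
  exact (B.harm z hz hzx w hw (hwS.trans hs)).trans hwS

theorem RB.fa (B : RB U T Z f δ₀ x S) {z : ℂ} (hz : z ∈ Z) (hzx : dist z x = 1)
    (hs : ¬ Sᶜ ⊆ T z) : ∃ a ∈ f z, a ∈ S := by
  by_contra hcon
  push Not at hcon
  obtain ⟨i, hi, hif, hiS⟩ := B.unp z hz hzx
  have h5 : (insert i (f z)).ncard = 3 := by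
    rw [Set.ncard_insert_of_notMem hif, B.hm.two z hz]
  have h7 : insert i (f z) ⊆ Sᶜ := Set.insert_subset hiS fun a ha => hcon a ha
  have h6 : insert i (f z) = Sᶜ := by
    apply Set.eq_of_subset_of_ncard_le h7 _ (Set.toFinite _)
    rw [h5, B.c3]
  apply hs
  rw [← h6]
  exact Set.insert_subset hi (B.hm.fsub z hz)

/-- the sixty degree rule for the palettes `T` -/
theorem RB.rule (B : RB U T Z f δ₀ x S) {y y' : ℂ} (hy : dist y x = 1) (hy' : dist y' x = 1)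
    (hyy : dist y y' = 1) (h1 : ¬ (y ∈ Z ∧ Sᶜ ⊆ T y)) (h2 : ¬ (y' ∈ Z ∧ Sᶜ ⊆ T y')) :
    ¬ (T y \ S ⊆ T y') := by
  by_cases hyZ : y ∈ Z
  · have hs : ¬ Sᶜ ⊆ T y := fun h => h1 ⟨hyZ, h⟩
    have hyy' : dist y' y = 1 := by rw [dist_comm]; exact hyy
    have hy'Z : y' ∉ Z := fun h => B.sep y hyZ hy y' h hyy'
    obtain ⟨a, haf, haS⟩ := B.fa hyZ hy hs
    exact ruleFrom B.irr B.three B.sub B.full hy' hy hyy' (B.le y' hy' hy'Z)
      (B.hm.fsub y hyZ) (B.harm y hyZ hy) haf haS (B.nc hy' hy'Z)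
  · by_cases hy'Z : y' ∈ Z
    · have hs : ¬ Sᶜ ⊆ T y' := fun h => h2 ⟨hy'Z, h⟩
      obtain ⟨a, haf, haS⟩ := B.fa hy'Z hy' hs
      exact ruleTo B.irr B.sub B.full hy hy' hyy (B.le y hy hyZ)
        (B.hm.fsub y' hy'Z) (B.harm y' hy'Z hy') haf haS
    · exact rule3 B.irr B.sub B.full hy hy' hyy (B.le y hy hyZ) (B.le y' hy' hy'Z)

theorem RB.nbr (B : RB U T Z f δ₀ x S) {y z : ℂ} (hz : z ∈ Z) (hzx : dist z x = 1)
    (hs : Sᶜ ⊆ T z) (hy : dist y x = 1) (hyz : dist y z = 1) : T y \ S ⊆ f z ∧ f z ⊆ T y := by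
  have hyZ : y ∉ Z := fun h => B.sep z hz hzx y h hyz
  exact nbrZ B.irr B.three B.sub B.full hy hzx hyz (B.le y hy hyZ) (B.harm z hz hzx) hs
    (B.fz hz hzx hs) (B.hm.two z hz) (B.nc hy hyZ)

/-! ### scales -/

theorem evt_scale {X : Type*} [TopologicalSpace X] {C W : Set X} (hC : IsCompact C)
    (hW : IsOpen W) {g : X → ℝ} (hg : Continuous g) (h0 : ∀ p ∈ C, g p ≤ 0 → p ∈ W) :
    ∃ η > 0, ∀ p ∈ C, g p < η → p ∈ W := by
  have hK : IsCompact (C \ W) := hC.diff hW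
  rcases Set.eq_empty_or_nonempty (C \ W) with he | hne
  · exact ⟨1, one_pos, fun p hp _ => by
      by_contra h1
      have : p ∈ C \ W := ⟨hp, h1⟩
      rw [he] at this
      exact this⟩
  · obtain ⟨p0, hp0, hmin⟩ := hK.exists_isMinOn hne hg.continuousOn
    have hpos : 0 < g p0 := by
      by_contra h1
      exact hp0.2 (h0 p0 hp0.1 (not_lt.1 h1))
    refine ⟨g p0, hpos, fun p hp hpg => ?_⟩
    by_contra h1
    exact absurd (hmin (show p ∈ C \ W from ⟨hp, h1⟩)) (not_le.2 hpg)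

/-- pairs on the circle at distance one -/
def Cp (x : ℂ) : Set (ℂ × ℂ) := {p | dist p.1 x = 1 ∧ dist p.2 x = 1 ∧ dist p.1 p.2 = 1}

theorem isCompact_Cp (x : ℂ) : IsCompact (Cp x) := by
  refine ((isCompact_closedBall x 1).prod (isCompact_closedBall x 1)).of_isClosed_subset ?_ ?_
  · exact (isClosed_eq (continuous_fst.dist continuous_const) continuous_const).inter
      ((isClosed_eq (continuous_snd.dist continuous_const) continuous_const).inter
        (isClosed_eq (continuous_fst.dist continuous_snd) continuous_const))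
  · rintro ⟨a, b⟩ ⟨h1, h2, -⟩
    exact ⟨mem_closedBall.2 h1.le, mem_closedBall.2 h2.le⟩

/-- the neighbours of the second kind of harmless points, uniformly -/
theorem RB.scale1 (B : RB U T Z f δ₀ x S) : ∃ η > 0, ∀ z ∈ Z, ∀ y y', dist y x = 1 →
    dist y' x = 1 → dist y y' = 1 → dist y z < η → Sᶜ ⊆ T z → T y' \ S ⊆ f z := by
  obtain ⟨η, hη, h⟩ := evt_scale (C := Z ×ˢ Cp x)
    (W := {p | p.1 ∈ Z → Sᶜ ⊆ T p.1 → T p.2.2 \ S ⊆ f p.1})
    (g := fun p => dist p.2.1 p.1) (B.hm.compact.prod (isCompact_Cp x)) (by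
      rw [isOpen_iff_mem_nhds]
      rintro ⟨z0, y0, y1⟩ h0
      by_cases hz0 : z0 ∈ Z
      · have e1 : ∀ᶠ p : ℂ × ℂ × ℂ in 𝓝 (z0, y0, y1), p.1 ∈ ball z0 δ₀ :=
          continuous_fst.continuousAt.preimage_mem_nhds (ball_mem_nhds z0 B.hm.pos)
        have c2 : Continuous fun p : ℂ × ℂ × ℂ => p.2.2 := by fun_prop
        have e2 : ∀ᶠ p : ℂ × ℂ × ℂ in 𝓝 (z0, y0, y1), T p.2.2 ⊆ T y1 :=
          (c2.tendsto (z0, y0, y1)).eventually (B.hm.usc y1)
        filter_upwards [e1, e2] with p hp1 hp2 hpZ hpS i hi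
        obtain ⟨q1, q2⟩ := B.hm.const z0 hz0 p.1 hpZ (mem_ball.1 hp1).le
        rw [q1] at hpS
        rw [q2]
        exact h0 hz0 hpS ⟨hp2 hi.1, hi.2⟩
      · have e1 : ∀ᶠ p : ℂ × ℂ × ℂ in 𝓝 (z0, y0, y1), p.1 ∈ Zᶜ :=
          continuous_fst.continuousAt.preimage_mem_nhds
            (B.hm.compact.isClosed.isOpen_compl.mem_nhds (show z0 ∈ Zᶜ from hz0))
        filter_upwards [e1] with p hp1 hpZ
        exact absurd hpZ hp1)
    ((continuous_fst.comp continuous_snd).dist continuous_fst) (by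
      rintro ⟨z, y, y'⟩ ⟨hz, h1, h2, h3⟩ h4 - hs
      have hyz : y = z := dist_le_zero.1 h4
      subst hyz
      exact (B.nbr hz h1 hs h2 (by rw [dist_comm]; exact h3)).1)
  exact ⟨η, hη, fun z hz y y' hy hy' hyy hyz hs => h (z, y, y') ⟨hz, hy, hy', hyy⟩ hyz hz hs⟩

/-- neighbours of harmless points are far from harmless points -/
theorem RB.scale2 (B : RB U T Z f δ₀ x S) : ∃ η > 0, ∀ z ∈ Z, ∀ z' ∈ Z, ∀ y y', dist y x = 1 →
    dist y' x = 1 → dist y y' = 1 → dist y z < η → η ≤ dist y' z' := by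
  obtain ⟨η, hη, h⟩ := evt_scale (C := (Z ×ˢ Z) ×ˢ Cp x) (W := ∅)
    (g := fun p => max (dist p.2.1 p.1.1) (dist p.2.2 p.1.2))
    ((B.hm.compact.prod B.hm.compact).prod (isCompact_Cp x)) isOpen_empty (by fun_prop) (by
      rintro ⟨⟨z, z'⟩, y, y'⟩ ⟨⟨hz, hz'⟩, h1, h2, h3⟩ h4
      exfalso
      have e1 : y = z := dist_le_zero.1 ((le_max_left _ _).trans h4)
      have e2 : y' = z' := dist_le_zero.1 ((le_max_right _ _).trans h4)
      subst e1
      subst e2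
      exact B.sep y hz h1 y' hz' (by rw [dist_comm]; exact h3))
  refine ⟨η, hη, fun z hz z' hz' y y' hy hy' hyy hyz => ?_⟩
  by_contra h1
  push Not at h1
  exact h ((z, z'), y, y') ⟨⟨hz, hz'⟩, hy, hy', hyy⟩ (max_lt hyz h1)

/-- a good scale -/
structure Good (T : ℂ → Set (Fin 6)) (Z : Set ℂ) (f : ℂ → Set (Fin 6)) (δ₀ : ℝ)
    (x : ℂ) (S : Set (Fin 6)) (δ : ℝ) : Prop where
  pos : 0 < δ
  le : δ ≤ δ₀ / 4
  g1 : ∀ z ∈ Z, (∃ y, dist y x = 1 ∧ dist y z ≤ δ) → (Sᶜ ⊆ T z → f z ⊆ Sᶜ) ∧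
    ∃ i, i ∈ T z ∧ i ∉ f z ∧ i ∉ S
  g2 : ∀ z ∈ Z, ∀ y y', dist y x = 1 → dist y' x = 1 → dist y y' = 1 → dist y z ≤ δ →
    Sᶜ ⊆ T z → T y' \ S ⊆ f z
  g3 : ∀ z ∈ Z, ∀ z' ∈ Z, ∀ y y', dist y x = 1 → dist y' x = 1 → dist y y' = 1 → dist y z ≤ δ →
    δ < dist y' z'
  g4 : (∀ z ∈ Z, dist z x = 1 → ¬ Sᶜ ⊆ T z) → ∀ z ∈ Z, (∃ y, dist y x = 1 ∧ dist y z ≤ δ) →
    ¬ Sᶜ ⊆ T z

theorem RB.good (B : RB U T Z f δ₀ x S) : ∀ᶠ δ in 𝓝[>] (0 : ℝ), Good T Z f δ₀ x S δ := by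
  have hδ₀ := B.hm.pos
  obtain ⟨δ₁, hδ₁, hδ₁', h1⟩ := B.hm.scale (x := x)
    (P := fun P F => (Sᶜ ⊆ P → F ⊆ Sᶜ) ∧ ∃ i, i ∈ P ∧ i ∉ F ∧ i ∉ S)
    fun z hz hzx => ⟨B.fz hz hzx, B.unp z hz hzx⟩
  obtain ⟨δ₂, hδ₂, h2⟩ := B.scale1
  obtain ⟨δ₃, hδ₃, h3⟩ := B.scale2
  have h4 : ∃ δ₄ > 0, (∀ z ∈ Z, dist z x = 1 → ¬ Sᶜ ⊆ T z) →
      ∀ z ∈ Z, (∃ y, dist y x = 1 ∧ dist y z ≤ δ₄) → ¬ Sᶜ ⊆ T z := by
    by_cases hn : ∀ z ∈ Z, dist z x = 1 → ¬ Sᶜ ⊆ T z
    · obtain ⟨δ₄, hδ₄, -, h4⟩ := B.hm.scale (x := x) (P := fun P _ => ¬ Sᶜ ⊆ P) hn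
      exact ⟨δ₄, hδ₄, fun _ => h4⟩
    · exact ⟨1, one_pos, fun h => absurd h hn⟩
  obtain ⟨δ₄, hδ₄, h4⟩ := h4
  filter_upwards [Ioo_mem_nhdsGT (lt_min hδ₁ (lt_min hδ₂ (lt_min hδ₃ hδ₄))),
    Ioo_mem_nhdsGT (show (0 : ℝ) < δ₀ / 4 by linarith)] with δ hδ hδq
  obtain ⟨hδ0, hδm⟩ := hδ
  have m1 : δ < δ₁ := hδm.trans_le (min_le_left _ _)
  have m2 : δ < δ₂ := hδm.trans_le ((min_le_right _ _).trans (min_le_left _ _))
  have m3 : δ < δ₃ := hδm.trans_le ((min_le_right _ _).trans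
    ((min_le_right _ _).trans (min_le_left _ _)))
  have m4 : δ < δ₄ := hδm.trans_le ((min_le_right _ _).trans
    ((min_le_right _ _).trans (min_le_right _ _)))
  exact ⟨hδ0, hδq.2.le, fun z hz ⟨y, hy, hyz⟩ => h1 z hz ⟨y, hy, hyz.trans m1.le⟩,
    fun z hz y y' hy hy' hyy hyz => h2 z hz y y' hy hy' hyy (hyz.trans_lt m2),
    fun z hz z' hz' y y' hy hy' hyy hyz => m3.trans_le
      (h3 z hz z' hz' y y' hy hy' hyy (hyz.trans_lt m3)),
    fun hn z hz ⟨y, hy, hyz⟩ => h4 hn z hz ⟨y, hy, hyz.trans m4.le⟩⟩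

/-! ### the intermediate palette -/

/-- the harmless points which have all colours outside `S` -/
def Z2 (T : ℂ → Set (Fin 6)) (Z : Set ℂ) (S : Set (Fin 6)) : Set ℂ := {z | z ∈ Z ∧ Sᶜ ⊆ T z}

theorem Z2_near (H : Hm T Z f δ₀) {z w : ℂ} (hz : z ∈ Z2 T Z S) (hw : w ∈ Z)
    (hd : dist w z ≤ δ₀) : w ∈ Z2 T Z S := by
  obtain ⟨e1, -⟩ := H.const z hz.1 w hw hd
  exact ⟨hw, by rw [e1]; exact hz.2⟩

theorem Z2_compact (H : Hm T Z f δ₀) : IsCompact (Z2 T Z S) := by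
  refine H.compact.of_isClosed_subset ?_ fun z hz => hz.1
  rw [← isOpen_compl_iff, isOpen_iff_mem_nhds]
  intro y hy
  by_cases hyZ : y ∈ Z
  · filter_upwards [ball_mem_nhds y H.pos] with z hz hzZ
    exact hy (Z2_near H hzZ hyZ (by rw [dist_comm]; exact (mem_ball.1 hz).le))
  · filter_upwards [H.compact.isClosed.isOpen_compl.mem_nhds hyZ] with z hz hzZ
    exact hz hzZ.1

theorem Z2_sc (H : Hm T Z f δ₀) (hδ : 0 < δ) (hδ' : δ ≤ δ₀ / 2) :
    Sc T (Z2 T Z S) δ (hp T f S) := by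
  have h0 := H.pos
  have Sc0 := H.sc hδ hδ' S
  refine ⟨hδ, fun z hz z' hz' hd => Sc0.loc z hz.1 z' hz'.1 hd, fun z hz w hw hwZ => ?_⟩
  exact Sc0.face z hz.1 w hw fun h => hwZ (Z2_near H hz h (by linarith))

/-- **The odd ring** for the palette which is changed near `Z2` only -/
theorem RB.odd2 (B : RB U T Z f δ₀ x S) (G : Good T Z f δ₀ x S δ) {c d e : Fin 6}
    (hcov : ∀ i, i ∉ S ↔ i = c ∨ i = d ∨ i = e) (hcd : c ≠ d) (hde : d ≠ e) (hce : c ≠ e)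
    (hnf : (∀ z ∈ Z, dist z x = 1 → ¬ Sᶜ ⊆ T z) → ¬ Frz x T ![c, d, e]) :
    ∃ N : ℕ, ∀ n : ℕ, N ≤ n → ∀ lab : ℕ → Fin 6,
      (∀ k ≤ n, lab k ∈ apx T (Z2 T Z S) δ (hp T f S) (x + cis (2 * Real.pi * k / n)) ∧
        lab k ∉ S) → lab n = lab 0 →
      ∑ k ∈ Finset.range n, eps (lab k) (lab (k + 1)) {c, d} = 1 := by
  have hδ₀ := B.hm.pos
  have hδ := G.pos
  have hδδ : δ ≤ δ₀ := by have := G.le; linarith
  have SC : Sc T (Z2 T Z S) δ (hp T f S) := Z2_sc B.hm G.pos (by have := G.le; linarith)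
  -- apexes
  have hap : ∀ z ∈ Z, (∃ y, dist y x = 1 ∧ dist y z ≤ δ) →
      hp T f S z ∈ T z ∧ hp T f S z ∉ f z ∧ hp T f S z ∉ S := by
    intro z hz hy
    obtain ⟨h1, h2⟩ := B.hm.apex hz S
    exact ⟨h1, h2, pick_avoid (G.g1 z hz hy).2⟩
  have hmemh : ∀ z ∈ Z2 T Z S, ∀ w, dist w z ≤ δ → hp T f S z ∈
      apx T (Z2 T Z S) δ (hp T f S) w := fun z hz w hw => Or.inr ⟨z, hz, hw, rfl⟩
  -- points near `Z2` and not in `Z2` are not in `Z`
  have hnZ : ∀ z ∈ Z2 T Z S, ∀ w, dist w z ≤ δ → w ∉ Z2 T Z S → w ∉ Z := fun z hz w hw hw2 h =>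
    hw2 (Z2_near B.hm hz h (by linarith))
  refine Vale.Agent.P032.S5.H180.odd_of_not_frz hcov hcd hde hce
    (usc_of_closed (SC.closed (Z2_compact B.hm) B.hm.usc)) ?_ ?_ ?_ ?_
  · -- nonempty
    intro y hy
    by_cases hn : ∃ z ∈ Z2 T Z S, dist y z ≤ δ
    · obtain ⟨z, hz, hyz⟩ := hn
      exact ⟨hp T f S z, hmemh z hz y hyz, (hap z hz.1 ⟨y, hy, hyz⟩).2.2⟩
    · push Not at hn
      rw [apx_far hn]
      obtain ⟨i, hi, hi'⟩ := Set.not_subset.1 (B.full y hy)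
      exact ⟨i, hi, hi'⟩
  · -- not everything
    intro y hy
    by_cases hn : ∃ z ∈ Z2 T Z S, dist y z ≤ δ
    · obtain ⟨z, hz, hyz⟩ := hn
      by_cases hyZ : y ∈ Z2 T Z S
      · obtain ⟨a, ha⟩ := Set.nonempty_of_ncard_ne_zero (s := f y)
          (by rw [B.hm.two y hyZ.1]; omega)
        have hy0 : ∃ w, dist w x = 1 ∧ dist w y ≤ δ := ⟨y, hy, by rw [dist_self]; exact hδ.le⟩
        refine ⟨a, (G.g1 y hyZ.1 hy0).1 hyZ.2 ha, fun hcon => ?_⟩
        have h1 := SC.sub_Z hyZ hcon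
        have h2 : a = hp T f S y := h1
        exact (hap y hyZ.1 hy0).2.1 (h2 ▸ ha)
      · have hyZ' := hnZ z hz y hyz hyZ
        obtain ⟨a, ha, haT⟩ := Set.not_subset.1 (B.hm.forb z hz.1 y (by linarith) hyZ')
        have hy0 : ∃ w, dist w x = 1 ∧ dist w z ≤ δ := ⟨y, hy, hyz⟩
        refine ⟨a, (G.g1 z hz.1 hy0).1 hz.2 ha, fun hcon => ?_⟩
        rcases SC.sub hz hyz hcon with h1 | h1
        · exact (hap z hz.1 hy0).2.1 (h1 ▸ ha)
        · exact haT h1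
    · push Not at hn
      rw [apx_far hn]
      by_cases hyZ : y ∈ Z
      · have h1 : ¬ Sᶜ ⊆ T y := fun h => by
          have := hn y ⟨hyZ, h⟩
          rw [dist_self] at this
          linarith
        obtain ⟨i, hi, hi'⟩ := Set.not_subset.1 h1
        exact ⟨i, hi, hi'⟩
      · obtain ⟨i, hi, hi'⟩ := Set.not_subset.1 (B.nc hy hyZ)
        exact ⟨i, hi, hi'⟩
  · -- the sixty degree rule
    intro y y' hy hy' hyy hsub
    have hyy' : dist y' y = 1 := by rw [dist_comm]; exact hyy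
    by_cases hn : ∃ z ∈ Z2 T Z S, dist y z ≤ δ
    · obtain ⟨z, hz, hyz⟩ := hn
      have hfar : ∀ z' ∈ Z2 T Z S, δ < dist y' z' := fun z' hz' =>
        G.g3 z hz.1 z' hz'.1 y y' hy hy' hyy hyz
      rw [apx_far hfar] at hsub
      obtain ⟨-, a2, a3⟩ := hap z hz.1 ⟨y, hy, hyz⟩
      exact a2 (G.g2 z hz.1 y y' hy hy' hyy hyz hz.2 ⟨hsub ⟨hmemh z hz y hyz, a3⟩, a3⟩)
    · push Not at hn
      rw [apx_far hn] at hsub
      have hy2 : ¬ (y ∈ Z ∧ Sᶜ ⊆ T y) := fun h => by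
        have := hn y h
        rw [dist_self] at this
        linarith
      by_cases hn' : ∃ z ∈ Z2 T Z S, dist y' z ≤ δ
      · obtain ⟨z, hz, hyz⟩ := hn'
        obtain ⟨-, a2, a3⟩ := hap z hz.1 ⟨y', hy', hyz⟩
        have hTy : T y \ S ⊆ f z := G.g2 z hz.1 y' y hy' hy hyy' hyz hz.2
        by_cases hin : ∃ z' ∈ Z2 T Z S, dist y' z' < δ
        · obtain ⟨z', hz', hyz'⟩ := hin
          obtain ⟨i, hi, hiS⟩ := Set.not_subset.1 (B.full y hy)
          have h1 := hsub ⟨hi, hiS⟩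
          have h2 := hTy ⟨hi, hiS⟩
          rcases h1 with ⟨-, h1⟩ | ⟨z'', hz'', h3, h4⟩
          · exact absurd (h1 z' hz') (not_le.2 hyz')
          · have h5 : hp T f S z'' = hp T f S z := by
              refine SC.loc z'' hz'' z hz ?_
              have := dist_triangle_left z'' z y'
              linarith
            rw [← h4, h5] at h2
            exact a2 h2
        · push Not at hin
          have hy'2 : y' ∉ Z2 T Z S := fun h => by
            have := hin y' h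
            rw [dist_self] at this
            linarith
          refine B.rule hy hy' hyy hy2 hy'2 fun i hi => ?_
          rcases SC.sub hz hyz (hsub hi) with h1 | h1
          · exact absurd (h1 ▸ hTy hi) a2
          · exact h1
      · push Not at hn'
        rw [apx_far hn'] at hsub
        have hy'2 : ¬ (y' ∈ Z ∧ Sᶜ ⊆ T y') := fun h => by
          have := hn' y' h
          rw [dist_self] at this
          linarith
        exact B.rule hy hy' hyy hy2 hy'2 hsub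
  · -- not frozen
    by_cases hex : ∀ z ∈ Z, dist z x = 1 → ¬ Sᶜ ⊆ T z
    · have hfar : ∀ y, dist y x = 1 → apx T (Z2 T Z S) δ (hp T f S) y = T y := by
        intro y hy
        refine apx_far fun z hz => ?_
        by_contra hcon
        push Not at hcon
        exact G.g4 hex z hz.1 ⟨y, hy, hcon⟩ hz.2
      intro hF
      apply hnf hex
      obtain ⟨s, hs, hfr⟩ := hF
      refine ⟨s, hs, fun y hy l => ?_⟩
      have h1 := hfr y hy l
      rw [hfar y hy, hfar _ (dist_rot' x y hy)] at h1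
      exact h1
    · push Not at hex
      obtain ⟨z, hz, hzx, hzS⟩ := hex
      rintro ⟨s, hs, hfr⟩
      have hz2 : z ∈ Z2 T Z S := ⟨hz, hzS⟩
      set y := x + om * (z - x) with hydef
      have hy : dist y x = 1 := dist_rot' x z hzx
      have hyz : dist y z = 1 := by
        rw [dist_comm]; exact dist_rot x z hzx
      obtain ⟨n1, n2⟩ := B.nbr hz hzx hzS hy hyz
      have hfar : apx T (Z2 T Z S) δ (hp T f S) y = T y := by
        refine apx_far fun z' hz' => ?_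
        exact G.g3 z hz z' hz'.1 z y hzx hy (by rw [dist_comm]; exact hyz)
          (by rw [dist_self]; exact hδ.le)
      obtain ⟨m, n, hmn, hfe⟩ := Set.ncard_eq_two.1 (B.hm.two z hz)
      have hfS := B.fz hz hzx hzS
      have hm : m ∈ f z := by rw [hfe]; exact Or.inl rfl
      have hn : n ∈ f z := by rw [hfe]; exact Or.inr rfl
      have key : ∀ i ∈ f z, ∃ l, (![c, d, e] : Fin 3 → Fin 6) l = i ∧
          (![c, d, e] : Fin 3 → Fin 6) (l - s) = hp T f S z := by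
        intro i hi
        obtain ⟨l, hl⟩ := Vale.Agent.P032.S5.H180.exists_col ((hcov i).1 (hfS hi))
        refine ⟨l, hl, ?_⟩
        have h1 := (hfr z hzx (l - s)).2 (by
          rw [sub_add_cancel, hl, ← hydef, hfar]
          exact n2 hi)
        exact SC.sub_Z hz2 h1
      have hinj : Function.Injective (![c, d, e] : Fin 3 → Fin 6) := by
        intro i j hij
        fin_cases i <;> fin_cases j <;> simp_all
      obtain ⟨l1, e1, e2⟩ := key m hm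
      obtain ⟨l2, e3, e4⟩ := key n hn
      have h5 : l1 - s = l2 - s := hinj (e2.trans e4.symm)
      have h6 : l1 = l2 := by
        have := congrArg (· + s) h5
        simpa using this
      exact hmn (by rw [← e1, ← e3, h6])

/-! ### the ladder -/

theorem eps_pot {d e g i0 : Fin 6} (hcov : ∀ i, i ∉ S ↔ i = d ∨ i = e ∨ i = g)
    (hde : d ≠ e) (heg : e ≠ g) (hdg : d ≠ g) (hi0 : i0 ∉ S) :
    ∃ ψ : Fin 6 → ZMod 2, ∀ i j, i ∉ S → j ∉ S → i ≠ i0 → j ≠ i0 →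
      eps i j {d, e} = ψ i + ψ j := by
  rcases (hcov i0).1 hi0 with rfl | rfl | rfl
  · refine ⟨fun _ => 0, fun i j hi hj hi1 hj1 => ?_⟩
    unfold eps
    rw [if_neg]
    · simp
    · rintro ⟨-, h2⟩
      have : i0 ∈ ({i, j} : Finset (Fin 6)) := by rw [← h2]; simp
      simp only [Finset.mem_insert, Finset.mem_singleton] at this
      rcases this with h | h
      · exact hi1 h.symm
      · exact hj1 h.symm
  · refine ⟨fun _ => 0, fun i j hi hj hi1 hj1 => ?_⟩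
    unfold eps
    rw [if_neg]
    · simp
    · rintro ⟨-, h2⟩
      have : i0 ∈ ({i, j} : Finset (Fin 6)) := by rw [← h2]; simp
      simp only [Finset.mem_insert, Finset.mem_singleton] at this
      rcases this with h | h
      · exact hi1 h.symm
      · exact hj1 h.symm
  · refine ⟨fun i => if i = d then 1 else 0, fun i j hi hj hi1 hj1 => ?_⟩
    have h1 : i = d ∨ i = e := by
      rcases (hcov i).1 hi with h | h | h
      · exact Or.inl h
      · exact Or.inr h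
      · exact absurd h hi1
    have h2 : j = d ∨ j = e := by
      rcases (hcov j).1 hj with h | h | h
      · exact Or.inl h
      · exact Or.inr h
      · exact absurd h hj1
    unfold eps
    rcases h1 with rfl | rfl <;> rcases h2 with rfl | rfl
    · simp; decide
    · simp [hde, hde.symm]
    · simp [hde.symm, Finset.pair_comm]
    · simp [hde.symm]

theorem ladder {d e g : Fin 6} (hcov : ∀ i, i ∉ S ↔ i = d ∨ i = e ∨ i = g)
    (hde : d ≠ e) (heg : e ≠ g) (hdg : d ≠ g) {n : ℕ} {h h' : ℕ → Fin 6}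
    (hS : ∀ k ≤ n, h k ∉ S ∧ h' k ∉ S)
    (hk : ∀ k < n, (h k = h' k ∧ h (k + 1) = h' (k + 1)) ∨
      ∃ i0, i0 ∉ S ∧ h k ≠ i0 ∧ h (k + 1) ≠ i0 ∧ h' k ≠ i0 ∧ h' (k + 1) ≠ i0)
    (h0 : h n = h 0) (h0' : h' n = h' 0) :
    ∑ k ∈ Finset.range n, eps (h k) (h (k + 1)) {d, e} =
      ∑ k ∈ Finset.range n, eps (h' k) (h' (k + 1)) {d, e} := by
  have two : ∀ a : ZMod 2, a + a = 0 := by decide
  set r : ℕ → ZMod 2 := fun k => eps (h k) (h' k) {d, e} with hr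
  have key : ∀ k < n, eps (h k) (h (k + 1)) {d, e} + eps (h' k) (h' (k + 1)) {d, e} =
      r (k + 1) - r k := by
    intro k hkn
    have hneg : ∀ a b : ZMod 2, a - b = a + b := by decide
    rw [hneg]
    rcases hk k hkn with ⟨e1, e2⟩ | ⟨i0, hi0, n1, n2, n3, n4⟩
    · simp only [hr, e1, e2, two]
      simp [eps]
    · obtain ⟨ψ, hψ⟩ := eps_pot hcov hde heg hdg hi0
      obtain ⟨a1, a2⟩ := hS k hkn.le
      obtain ⟨a3, a4⟩ := hS (k + 1) hkn
      simp only [hr]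
      rw [hψ _ _ a1 a3 n1 n2, hψ _ _ a2 a4 n3 n4, hψ _ _ a3 a4 n2 n4, hψ _ _ a1 a2 n1 n3]
      ring
  have h1 : ∑ k ∈ Finset.range n, (eps (h k) (h (k + 1)) {d, e} +
      eps (h' k) (h' (k + 1)) {d, e}) = 0 := by
    rw [Finset.sum_congr rfl fun k hk => key k (Finset.mem_range.1 hk), Finset.sum_range_sub]
    simp only [hr, h0, h0', sub_self]
  rw [Finset.sum_add_distrib] at h1
  have h2 : ∀ a b : ZMod 2, a + b = 0 → a = b := by decide
  exact h2 _ _ h1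

theorem pt_cis (x : ℂ) (j k : ℕ) :
    pt x j (2 ^ j) k = x + cis (2 * Real.pi * k / ((6 * 2 ^ j : ℕ) : ℝ)) := by
  unfold pt cis
  have e1 : (((2 ^ j : ℕ) : ℝ) / 2 ^ j) = 1 := by
    push_cast
    exact div_self (by positivity)
  have e2 : (2 * Real.pi * k / ((6 * 2 ^ j : ℕ) : ℝ)) = Real.pi / 3 * k / 2 ^ j := by
    push_cast
    field_simp
    ring
  rw [e1, Complex.ofReal_one, one_mul, e2]

/-- **The odd ring at a base** `(x, S)`: every fine ring of labels of the apex cover outside `S`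
is odd. -/
theorem RB.odd (B : RB U T Z f δ₀ x S) {d e g : Fin 6}
    (hcov : ∀ i, i ∉ S ↔ i = d ∨ i = e ∨ i = g) (hde : d ≠ e) (heg : e ≠ g) (hdg : d ≠ g)
    (hnf : (∀ z ∈ Z, dist z x = 1 → ¬ Sᶜ ⊆ T z) → ¬ Frz x T ![d, e, g]) :
    ∀ᶠ δ in 𝓝[>] (0 : ℝ), ∀ᶠ j : ℕ in atTop, ∀ h : ℕ → Fin 6, h (6 * 2 ^ j) = h 0 →
      (∀ k ≤ 6 * 2 ^ j, h k ∈ apx T Z δ (hp T f S) (pt x j (2 ^ j) k) ∧ h k ∉ S) →
        ∑ k ∈ Finset.range (6 * 2 ^ j), eps (h k) (h (k + 1)) {d, e} = 1 := by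
  classical
  have hδ₀ := B.hm.pos
  filter_upwards [B.good] with δ G
  have hδ := G.pos
  have hδδ : δ ≤ δ₀ / 4 := G.le
  obtain ⟨N, hN⟩ := B.odd2 G hcov hde heg hdg hnf
  have hmesh : ∀ᶠ j : ℕ in atTop, (3 : ℝ) / 2 ^ j < δ₀ / 4 :=
    (tendsto_order.1 tendsto_mesh).2 _ (by linarith)
  filter_upwards [hmesh, eventually_ge_atTop N] with j hj hjN h hper hlab
  have hjN' : N ≤ 6 * 2 ^ j := by
    have h1 : j < 2 ^ j := Nat.lt_two_pow_self
    omega
  -- a colour of `T y` outside `S`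
  set c : ℂ → Fin 6 := fun y => if hy : ∃ i, i ∈ T y ∧ i ∉ S then hy.choose else 0 with hc
  have hcP : ∀ y, dist y x = 1 → c y ∈ T y ∧ c y ∉ S := by
    intro y hy
    obtain ⟨i, hi, hi'⟩ := Set.not_subset.1 (B.full y hy)
    have hex : ∃ i, i ∈ T y ∧ i ∉ S := ⟨i, hi, hi'⟩
    simp only [hc]
    rw [dif_pos hex]
    exact hex.choose_spec
  set P : ℂ → Prop := fun y => ∃ z ∈ Z, ¬ Sᶜ ⊆ T z ∧ dist y z ≤ δ with hP
  set p : ℕ → ℂ := fun k => pt x j (2 ^ j) k with hp'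
  have hpx : ∀ k, dist (p k) x = 1 := fun k => pt_ring x j k
  set h' : ℕ → Fin 6 := fun k => if P (p k) then c (p k) else h k with hh'
  have hn : p (6 * 2 ^ j) = p 0 := pt_per x j (2 ^ j)
  have h0' : h' (6 * 2 ^ j) = h' 0 := by
    simp only [hh', hn, hper]
  have hS : ∀ k ≤ 6 * 2 ^ j, h k ∉ S ∧ h' k ∉ S := by
    intro k hk
    refine ⟨(hlab k hk).2, ?_⟩
    simp only [hh']
    split_ifs with h1
    · exact (hcP _ (hpx k)).2
    · exact (hlab k hk).2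
  -- labels near a point of the first kind
  have hnear : ∀ z ∈ Z, ∀ k ≤ 6 * 2 ^ j, dist (p k) z ≤ δ₀ / 2 → h k ∈ T z ∧ h' k ∈ T z := by
    intro z hz k hk hd
    have hTz := B.hm.sub z hz (p k) (by linarith)
    have h1 : h k ∈ T z := by
      rcases (hlab k hk).1 with ⟨h1, -⟩ | ⟨z', hz', h1, h2⟩
      · exact hTz h1
      · -- the apex of a near harmless point
        obtain ⟨e1, -⟩ := B.hm.const z hz z' hz' (by
          have := dist_triangle_left z' z (p k)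
          linarith)
        rw [← h2, ← e1]
        exact (B.hm.apex hz' S).1
    refine ⟨h1, ?_⟩
    simp only [hh']
    split_ifs with h2
    · exact hTz (hcP _ (hpx k)).1
    · exact h1
  rw [ladder hcov hde heg hdg hS ?_ hper h0']
  · refine hN (6 * 2 ^ j) hjN' h' (fun k hk => ⟨?_, (hS k hk).2⟩) h0'
    rw [← pt_cis]
    show h' k ∈ apx T (Z2 T Z S) δ (hp T f S) (p k)
    simp only [hh']
    split_ifs with h1
    · obtain ⟨z, hz, hzS, hd⟩ := h1
      rw [apx_far]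
      · exact (hcP _ (hpx k)).1
      · intro z' hz'
        by_contra hcon
        push Not at hcon
        refine hzS ?_
        have h2 := Z2_near B.hm (S := S) (w := z) hz' hz (by
          have := dist_triangle_left z z' (p k)
          linarith)
        exact h2.2
    · rcases (hlab k hk).1 with ⟨h2, h3⟩ | ⟨z', hz', h2, h3⟩
      · exact Or.inl ⟨h2, fun z hz => h3 z hz.1⟩
      · refine Or.inr ⟨z', ⟨hz', ?_⟩, h2, h3⟩
        by_contra h4
        exact h1 ⟨z', hz', h4, h2⟩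
  · intro k hk
    have hstep : dist (p (k + 1)) (p k) < δ₀ / 4 :=
      (dist_cell x (i := 2 ^ j) (i' := 2 ^ j) le_rfl (Or.inl rfl) (Or.inr rfl)).trans_lt hj
    by_cases h1 : P (p k)
    · right
      obtain ⟨z, hz, hzS, hd⟩ := h1
      obtain ⟨i0, hi0, hi0'⟩ := Set.not_subset.1 hzS
      have h3 : dist (p (k + 1)) z ≤ δ₀ / 2 := by
        have := dist_triangle (p (k + 1)) (p k) z
        linarith
      obtain ⟨q1, q2⟩ := hnear z hz k hk.le (by linarith)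
      obtain ⟨q3, q4⟩ := hnear z hz (k + 1) hk h3
      exact ⟨i0, hi0, fun h => hi0' (h ▸ q1), fun h => hi0' (h ▸ q3), fun h => hi0' (h ▸ q2),
        fun h => hi0' (h ▸ q4)⟩
    · by_cases h2 : P (p (k + 1))
      · right
        obtain ⟨z, hz, hzS, hd⟩ := h2
        obtain ⟨i0, hi0, hi0'⟩ := Set.not_subset.1 hzS
        have h3 : dist (p k) z ≤ δ₀ / 2 := by
          have := dist_triangle_left (p k) z (p (k + 1))
          linarith
        obtain ⟨q1, q2⟩ := hnear z hz k hk.le h3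
        obtain ⟨q3, q4⟩ := hnear z hz (k + 1) hk (by linarith)
        exact ⟨i0, hi0, fun h => hi0' (h ▸ q1), fun h => hi0' (h ▸ q3), fun h => hi0' (h ▸ q2),
          fun h => hi0' (h ▸ q4)⟩
      · left
        simp only [hh', if_neg h1, if_neg h2, and_self]

end Vale.Agent.P032.S5.H57
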