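import Vale.Agent.P032.Carr.Supp
import Vale.Agent.P032.S5.H180.Odd
import Vale.Agent.P032.S5.H483.Irr

/-!
# P032, block CARR: the sixty degree rules on a circle which meets harmless four-coloured points
-/

open Set Filter Topology Metric

noncomputable section

namespace Vale.Agent.P032.S5.H57

open Vale.Agent.P032.Six Vale.Agent.P032.Carr

variable {U : Fin 6 → Set ℂ} {T : ℂ → Set (Fin 6)}

theorem not_line {u v p : ℂ} (huv : dist u v = 1) (hpu : dist p u = 1) :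
    ¬ (v = u ∨ v + u = 2 * p) := by
  rintro (h1 | h1)
  · rw [h1, dist_self] at huv; norm_num at huv
  · have h2 : v - u = 2 * (p - u) := by linear_combination h1
    have h3 : dist v u = 2 := by
      rw [dist_eq_norm, h2, norm_mul, ← dist_eq_norm, hpu]; simp
    rw [dist_comm, h3] at huv
    norm_num at huv

/-- Lemma X at a full face, arc form -/
theorem arcF (h : Irr U T) {u p : ℂ} {S : Set (Fin 6)} {t : Fin 6}
    (hf : ∀ y, dist y u = 1 → ¬ T y ⊆ S) (ht : T p ⊆ insert t S) :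
    ∀ᶠ q in 𝓝[sphere u 1] p, t ∈ T q := by
  filter_upwards [mem_nhdsWithin_of_mem_nhds (h.nhd p), self_mem_nhdsWithin] with q h1 h2
  obtain ⟨s, hs, hsu⟩ := Set.not_subset.1 (hf q h2)
  rcases ht (h1 hs) with rfl | h4
  · exact hs
  · exact absurd h4 hsu

/-- partners off the line are impossible -/
theorem no_partner (h : Irr U T) {u p v : ℂ} {t : Fin 6} (hpu : dist p u = 1)
    (ht : ∀ᶠ q in 𝓝[sphere u 1] p, t ∈ T q) (hpv : dist p v = 1) (huv : dist u v = 1)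
    (htv : t ∈ T v) : False :=
  not_line huv hpu (h.mx.partner_line hpu (ht.mono fun q hq => h.sub q hq) hpv (h.sub v htv))

/-- Lemma X at a full face -/
theorem lineF (h : Irr U T) {u p v : ℂ} {S : Set (Fin 6)} {t : Fin 6}
    (hf : ∀ y, dist y u = 1 → ¬ T y ⊆ S) (hpu : dist p u = 1) (hpv : dist p v = 1)
    (huv : dist u v = 1) (htv : t ∈ T v) : ¬ T p ⊆ insert t S := fun ht =>
  no_partner h hpu (arcF h hf ht) hpv huv htv

/-- two colours of `T y \ S` if `T y \ S ⊆ T z` -/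
theorem two_out (h : Irr U T) {x y z : ℂ} {S : Set (Fin 6)}
    (hf : ∀ y, dist y x = 1 → ¬ T y ⊆ S) (hy : dist y x = 1) (hz : dist z x = 1)
    (hyz : dist y z = 1) (hsub : T y \ S ⊆ T z) :
    ∃ m n, m ∈ T y ∧ n ∈ T y ∧ m ∉ S ∧ n ∉ S ∧ m ≠ n := by
  obtain ⟨m, hm, hmS⟩ := Set.not_subset.1 (hf y hy)
  have h1 := lineF h hf hy hyz (by rw [dist_comm]; exact hz) (hsub ⟨hm, hmS⟩)
  obtain ⟨n, hn, hn'⟩ := Set.not_subset.1 h1
  exact ⟨m, n, hm, hn, hmS, fun hnS => hn' (Or.inr hnS), fun hmn => hn' (Or.inl hmn.symm)⟩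

theorem three_of {P : Set (Fin 6)} (hP : P.ncard ≤ 3) {m n r : Fin 6} (hm : m ∈ P) (hn : n ∈ P)
    (hr : r ∈ P) (hmn : m ≠ n) (hmr : m ≠ r) (hnr : n ≠ r) : P = {m, n, r} := by
  symm
  apply Set.eq_of_subset_of_ncard_le
  · rintro i (rfl | rfl | rfl) <;> assumption
  · rw [Set.ncard_insert_of_notMem, Set.ncard_pair hnr]
    · exact hP
    · rintro (h7 | h7)
      · exact hmn h7
      · exact hmr h7
  · exact Set.toFinite _

theorem compl_sub {S : Set (Fin 6)} (h3 : S.ncard = 3) {m n r : Fin 6} (hm : m ∉ S) (hn : n ∉ S)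
    (hr : r ∉ S) (hmn : m ≠ n) (hmr : m ≠ r) (hnr : n ≠ r) : Sᶜ = {m, n, r} := by
  have h4 : (Sᶜ).ncard = 3 := by rw [Set.ncard_compl, h3]; simp
  exact three_of h4.le hm hn hr hmn hmr hnr

/-- **T-rule** for two points with at most three colours -/
theorem rule3 (h : Irr U T) {x y y' : ℂ} {S : Set (Fin 6)} (hSx : S ⊆ T x)
    (hf : ∀ y, dist y x = 1 → ¬ T y ⊆ S) (hy : dist y x = 1) (hy' : dist y' x = 1)
    (hyy : dist y y' = 1) (c1 : (T y).ncard ≤ 3) (c2 : (T y').ncard ≤ 3) :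
    ¬ (T y \ S ⊆ T y') := by
  intro hsub
  obtain ⟨m, n, hm, hn, hmS, hnS, hmn⟩ := two_out h hf hy hy' hyy hsub
  obtain ⟨t, ht, ht'⟩ := h.not_sub' (x := y') (y := y) hyy c2
  have htS : t ∈ S := by
    by_contra h1
    exact ht' (hsub ⟨ht, h1⟩)
  have hmt : m ≠ t := fun h1 => hmS (h1 ▸ htS)
  have hnt : n ≠ t := fun h1 => hnS (h1 ▸ htS)
  have e1 := three_of c1 hm hn ht hmn hmt hnt
  have h2 : T y ⊆ insert t (T y') := by
    rw [e1]
    rintro i (rfl | rfl | rfl)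
    · exact Or.inr (hsub ⟨hm, hmS⟩)
    · exact Or.inr (hsub ⟨hn, hnS⟩)
    · exact Or.inl rfl
  exact no_partner h hyy (h.arcX c2 h2) hy (by rw [dist_comm] at hy'; rw [dist_comm]; exact hy')
    (hSx htS)

/-- the key lemma at a harmless point: a palette on the circle about a harmless point with two
colours of `T z \ S` has a third colour outside `T z` and `S` -/
theorem keyA (h : Irr U T) {x y z : ℂ} {S F : Set (Fin 6)} (hSx : S ⊆ T x)
    (hy : dist y x = 1) (hz : dist z x = 1) (hyz : dist y z = 1) (c1 : (T y).ncard ≤ 3)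
    (hFz : F ⊆ T z) (hM : ∀ q, dist q z = 1 → T q ⊆ T z → F ⊆ T q) {a : Fin 6} (haF : a ∈ F)
    (haS : a ∈ S) {m n : Fin 6} (hm : m ∈ T y) (hn : n ∈ T y) (hmS : m ∉ S) (hnS : n ∉ S)
    (hmn : m ≠ n) (hmz : m ∈ T z) (hnz : n ∈ T z) :
    ∃ r ∈ T y, r ∉ T z ∧ r ∉ S := by
  have hxz : dist x z = 1 := by rw [dist_comm]; exact hz
  have hzx : dist z x = 1 := hz
  by_cases hay : a ∈ T y
  · exfalso
    have hma : m ≠ a := fun h1 => hmS (h1 ▸ haS)
    have hna : n ≠ a := fun h1 => hnS (h1 ▸ haS)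
    have e1 := three_of c1 hm hn hay hmn hma hna
    have h2 : T y ⊆ T z := by
      rw [e1]
      rintro i (rfl | rfl | rfl)
      · exact hmz
      · exact hnz
      · exact hFz haF
    refine no_partner h hyz (t := a) ?_ hy hzx (hSx haS)
    filter_upwards [mem_nhdsWithin_of_mem_nhds (h.nhd y), self_mem_nhdsWithin] with q h3 h4
    exact hM q h4 (h3.trans h2) haF
  · have h1 : ∀ q, dist q z = 1 → T q ⊆ T y → ¬ T q ⊆ T z := fun q hq hqy hqz =>
      hay (hqy (hM q hq hqz haF))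
    obtain ⟨r, hr, hrz⟩ := Set.not_subset.1 (h1 y hyz Subset.rfl)
    refine ⟨r, hr, hrz, fun hrS => ?_⟩
    have hmr : m ≠ r := fun h1 => hmS (h1 ▸ hrS)
    have hnr : n ≠ r := fun h1 => hnS (h1 ▸ hrS)
    have e1 := three_of c1 hm hn hr hmn hmr hnr
    refine no_partner h hyz (t := r) ?_ hy hzx (hSx hrS)
    filter_upwards [mem_nhdsWithin_of_mem_nhds (h.nhd y), self_mem_nhdsWithin] with q h3 h4
    obtain ⟨r', hr', hrz'⟩ := Set.not_subset.1 (h1 q h4 h3)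
    have h5 := h3 hr'
    rw [e1] at h5
    rcases h5 with rfl | rfl | rfl
    · exact absurd hmz hrz'
    · exact absurd hnz hrz'
    · exact hr'

/-- **T-rule** towards a harmless point -/
theorem ruleTo (h : Irr U T) {x y z : ℂ} {S F : Set (Fin 6)} (hSx : S ⊆ T x)
    (hf : ∀ y, dist y x = 1 → ¬ T y ⊆ S)
    (hy : dist y x = 1) (hz : dist z x = 1) (hyz : dist y z = 1) (c1 : (T y).ncard ≤ 3)
    (hFz : F ⊆ T z) (hM : ∀ q, dist q z = 1 → T q ⊆ T z → F ⊆ T q) {a : Fin 6} (haF : a ∈ F)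
    (haS : a ∈ S) : ¬ (T y \ S ⊆ T z) := by
  intro hsub
  obtain ⟨m, n, hm, hn, hmS, hnS, hmn⟩ := two_out h hf hy hz hyz hsub
  obtain ⟨r, hr, hrz, hrS⟩ := keyA h hSx hy hz hyz c1 hFz hM haF haS hm hn hmS hnS hmn
    (hsub ⟨hm, hmS⟩) (hsub ⟨hn, hnS⟩)
  exact hrz (hsub ⟨hr, hrS⟩)

/-- **T-rule** from a harmless point -/
theorem ruleFrom (h : Irr U T) {x y z : ℂ} {S F : Set (Fin 6)} (hS3 : S.ncard = 3)
    (hSx : S ⊆ T x) (hf : ∀ y, dist y x = 1 → ¬ T y ⊆ S)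
    (hy : dist y x = 1) (hz : dist z x = 1) (hyz : dist y z = 1) (c1 : (T y).ncard ≤ 3)
    (hFz : F ⊆ T z) (hM : ∀ q, dist q z = 1 → T q ⊆ T z → F ⊆ T q) {a : Fin 6} (haF : a ∈ F)
    (haS : a ∈ S) (hcy : ¬ Sᶜ ⊆ T y) : ¬ (T z \ S ⊆ T y) := by
  intro hsub
  obtain ⟨m, n, hm, hn, hmS, hnS, hmn⟩ := two_out h hf hz hy (by rw [dist_comm]; exact hyz) hsub
  have hmy := hsub ⟨hm, hmS⟩
  have hny := hsub ⟨hn, hnS⟩
  obtain ⟨r, hr, hrz, hrS⟩ := keyA h hSx hy hz hyz c1 hFz hM haF haS hmy hny hmS hnS hmn hm hn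
  apply hcy
  rw [compl_sub hS3 hmS hnS hrS hmn (fun h1 => hrz (h1 ▸ hm)) (fun h1 => hrz (h1 ▸ hn))]
  rintro i (rfl | rfl | rfl) <;> assumption

/-- neighbours of a harmless point which has all colours outside `S` -/
theorem nbrZ (h : Irr U T) {x y z : ℂ} {S F : Set (Fin 6)} (hS3 : S.ncard = 3)
    (hSx : S ⊆ T x) (hf : ∀ y, dist y x = 1 → ¬ T y ⊆ S)
    (hy : dist y x = 1) (hz : dist z x = 1) (hyz : dist y z = 1) (c1 : (T y).ncard ≤ 3)
    (hM : ∀ q, dist q z = 1 → T q ⊆ T z → F ⊆ T q) (hSz : Sᶜ ⊆ T z) (hFS : F ⊆ Sᶜ)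
    (hF2 : F.ncard = 2) (hcy : ¬ Sᶜ ⊆ T y) : T y \ S ⊆ F ∧ F ⊆ T y := by
  have h4 : (Sᶜ).ncard = 3 := by rw [Set.ncard_compl, hS3]; simp
  have hsubz : T y \ S ⊆ T z := fun i hi => hSz hi.2
  have key : T y \ S ⊆ F := by
    rintro d ⟨hd, hdS⟩
    by_contra hdF
    have h1 := lineF h hf hy hyz (by rw [dist_comm]; exact hz) (hSz hdS)
    obtain ⟨n, hn, hn'⟩ := Set.not_subset.1 h1
    have hnd : d ≠ n := fun h2 => hn' (Or.inl h2.symm)
    have hnS : n ∉ S := fun h2 => hn' (Or.inr h2)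
    -- `F ⊆ T q` is impossible
    have hFy : ¬ F ⊆ T y := by
      intro hF
      apply hcy
      have h5 : (insert d F).ncard = 3 := by
        rw [Set.ncard_insert_of_notMem hdF, hF2]
      have h6 : insert d F = Sᶜ := by
        apply Set.eq_of_subset_of_ncard_le (Set.insert_subset hdS hFS) _ (Set.toFinite _)
        rw [h5, h4]
      rw [← h6]
      exact Set.insert_subset hd hF
    have h2 : ∀ q, dist q z = 1 → T q ⊆ T y → ¬ T q ⊆ T z := fun q hq hqy hqz =>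
      hFy ((hM q hq hqz).trans hqy)
    obtain ⟨r, hr, hrz⟩ := Set.not_subset.1 (h2 y hyz Subset.rfl)
    have hrS : r ∈ S := by
      by_contra h5
      exact hrz (hSz h5)
    have hdr : d ≠ r := fun h1 => hdS (h1 ▸ hrS)
    have hnr : n ≠ r := fun h1 => hnS (h1 ▸ hrS)
    have e1 := three_of c1 hd hn hr hnd hdr hnr
    refine no_partner h hyz (t := r) ?_ hy hz (hSx hrS)
    filter_upwards [mem_nhdsWithin_of_mem_nhds (h.nhd y), self_mem_nhdsWithin] with q h3 h4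
    obtain ⟨r', hr', hrz'⟩ := Set.not_subset.1 (h2 q h4 h3)
    have h5 := h3 hr'
    rw [e1] at h5
    rcases h5 with rfl | rfl | rfl
    · exact absurd (hSz hdS) hrz'
    · exact absurd (hSz hnS) hrz'
    · exact hr'
  refine ⟨key, ?_⟩
  obtain ⟨m, n, hm, hn, hmS, hnS, hmn⟩ := two_out h hf hy hz hyz hsubz
  have h5 : ({m, n} : Set (Fin 6)) = F := by
    apply Set.eq_of_subset_of_ncard_le _ _ (Set.toFinite _)
    · rintro i (rfl | rfl)
      · exact key ⟨hm, hmS⟩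
      · exact key ⟨hn, hnS⟩
    · rw [hF2, Set.ncard_pair hmn]
  rw [← h5]
  rintro i (rfl | rfl) <;> assumption

end Vale.Agent.P032.S5.H57
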